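import Mathlib

set_option autoImplicit false

namespace Crest.Agent.R280

open Set Filter Topology

/-- A monotone midpoint-convex function on the line is convex. -/
theorem convexOn_of_monotone_midpoint (H : ℝ → ℝ) (hmono : Monotone H)
    (hmid : ∀ x y : ℝ, x ≤ y → 2 * H ((x + y) / 2) ≤ H x + H y) : ConvexOn ℝ univ H := by
  refine LinearOrder.convexOn_of_lt convex_univ ?_
  intro x _ y _ hxy a b ha hb hab
  simp only [smul_eq_mul]
  set z := a * x + b * y with hz
  set s := (H y - H x) / (y - x) with hs
  have hyx : 0 < y - x := sub_pos.mpr hxy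
  have hs0 : 0 ≤ s := div_nonneg (sub_nonneg.mpr (hmono hxy.le)) hyx.le
  have hzx : z - x = b * (y - x) := by
    have : a = 1 - b := by linarith
    rw [hz, this]; ring
  have hyz : y - z = a * (y - x) := by
    have : b = 1 - a := by linarith
    rw [hz, this]; ring
  have hxz : x ≤ z := by nlinarith
  have hzy : z ≤ y := by nlinarith
  have hsy : s * (y - x) = H y - H x := by rw [hs]; field_simp
  have key : ∀ n : ℕ, ∃ p q : ℝ, p ≤ z ∧ z ≤ q ∧ q - p = (y - x) * (1 / 2) ^ n ∧
      H p ≤ H x + s * (p - x) ∧ H q ≤ H x + s * (q - x) := by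
    intro n
    induction n with
    | zero => exact ⟨x, y, hxz, hzy, by simp, by simp, by linarith⟩
    | succ n ih =>
      obtain ⟨p, q, hp, hq, hpq, hHp, hHq⟩ := ih
      have hm := hmid p q (hp.trans hq)
      have hHm : H ((p + q) / 2) ≤ H x + s * ((p + q) / 2 - x) := by nlinarith
      rcases le_total z ((p + q) / 2) with h | h
      · refine ⟨p, (p + q) / 2, hp, h, ?_, hHp, hHm⟩
        rw [pow_succ]; linarith
      · refine ⟨(p + q) / 2, q, h, hq, ?_, hHm, hHq⟩
        rw [pow_succ]; linarith
  have hle : ∀ n : ℕ, H z ≤ H x + s * (z - x) + s * ((y - x) * (1 / 2) ^ n) := by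
    intro n
    obtain ⟨p, q, hp, hq, hpq, _, hHq⟩ := key n
    have h1 : H z ≤ H q := hmono hq
    have h2 : s * (q - x) ≤ s * (z - x) + s * ((y - x) * (1 / 2) ^ n) := by
      rw [← hpq, ← mul_add]
      exact mul_le_mul_of_nonneg_left (by linarith) hs0
    linarith
  have hlim : Tendsto (fun n : ℕ => H x + s * (z - x) + s * ((y - x) * (1 / 2 : ℝ) ^ n)) atTop
      (𝓝 (H x + s * (z - x) + s * ((y - x) * 0))) := by
    refine tendsto_const_nhds.add (tendsto_const_nhds.mul (tendsto_const_nhds.mul ?_))
    exact tendsto_pow_atTop_nhds_zero_of_lt_one (by norm_num) (by norm_num)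
  have hfin := ge_of_tendsto' hlim hle
  rw [hzx] at hfin
  have : a = 1 - b := by linarith
  rw [this]
  nlinarith

/-- A convex function lies above its chord outside the chord's interval. -/
theorem chord_out (H : ℝ → ℝ) (hH : ConvexOn ℝ univ H) {x y u : ℝ} (hxy : x < y)
    (hu : u ≤ x ∨ y ≤ u) : H x + (H y - H x) / (y - x) * (u - x) ≤ H u := by
  have hyx : 0 < y - x := sub_pos.mpr hxy
  rcases hu with hu | hu
  · rcases hu.eq_or_lt with rfl | hu
    · simp
    · have h := hH.slope_mono_adjacent (mem_univ u) (mem_univ y) hu hxy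
      have hxu : 0 < x - u := sub_pos.mpr hu
      rw [div_le_iff₀ hxu] at h
      nlinarith
  · rcases hu.eq_or_lt with rfl | hu
    · field_simp; simp
    · have h := hH.slope_mono_adjacent (mem_univ x) (mem_univ u) hxy hu
      have huy : 0 < u - y := sub_pos.mpr hu
      rw [le_div_iff₀ huy] at h
      have : (H y - H x) / (y - x) * (y - x) = H y - H x := by field_simp
      nlinarith

/-- A convex function lies below its chord on the chord's interval. -/
theorem chord_in (H : ℝ → ℝ) (hH : ConvexOn ℝ univ H) {x y u : ℝ} (hxy : x < y)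
    (hxu : x ≤ u) (huy : u ≤ y) : H u ≤ H x + (H y - H x) / (y - x) * (u - x) := by
  have hyx : 0 < y - x := sub_pos.mpr hxy
  have h := hH.2 (mem_univ x) (mem_univ y)
    (show (0:ℝ) ≤ (y - u) / (y - x) from div_nonneg (by linarith) hyx.le)
    (show (0:ℝ) ≤ (u - x) / (y - x) from div_nonneg (by linarith) hyx.le) (by field_simp; ring)
  simp only [smul_eq_mul] at h
  have e1 : (y - u) / (y - x) * x + (u - x) / (y - x) * y = u := by field_simp; ring
  rw [e1] at h
  have e2 : (y - u) / (y - x) * H x + (u - x) / (y - x) * H y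
      = H x + (H y - H x) / (y - x) * (u - x) := by field_simp; ring
  linarith

/-- A supporting line. -/
theorem exists_support (H : ℝ → ℝ) (hH : ConvexOn ℝ univ H) (x : ℝ) :
    ∃ β : ℝ, ∀ u, H x + β * (u - x) ≤ H u := by
  have hx : x ∈ interior (univ : Set ℝ) := by simp
  refine ⟨derivWithin H (Ioi x) x, fun u => ?_⟩
  rcases lt_trichotomy u x with h | rfl | h
  · have h1 := hH.slope_le_leftDeriv_of_mem_interior (mem_univ u) hx h
    have h2 := hH.leftDeriv_le_rightDeriv_of_mem_interior hx
    have h3 := h1.trans h2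
    rw [slope_def_field, div_le_iff₀ (sub_pos.mpr h)] at h3
    nlinarith
  · simp
  · have h1 := hH.rightDeriv_le_slope_of_mem_interior hx (mem_univ u) h
    rw [slope_def_field, le_div_iff₀ (sub_pos.mpr h)] at h1
    nlinarith

end Crest.Agent.R280
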