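import Mathlib

set_option autoImplicit false

namespace Crest.Agent.R280

open Set Filter Topology MeasureTheory Real

/-- indicator of the negative half-line -/
noncomputable def neg1 (u : ℝ) : ℝ := if u < 0 then 1 else 0

/-- step kernel -/
noncomputable def kk (y u : ℝ) : ℝ := (if u < y then 1 else 0) - neg1 u

/-- the Gamma(2) density -/
noncomputable def ww (u : ℝ) : ℝ := if 0 < u then u * exp (-u) else 0

/-- survival function of a shifted exponential -/
noncomputable def St (α β u : ℝ) : ℝ := min 1 (exp (-(α + β * u)))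

theorem kk_eq (y : ℝ) : kk y = fun u => (Ico 0 y).indicator (fun _ => (1 : ℝ)) u
    - (Ico y 0).indicator (fun _ => (1 : ℝ)) u := by
  funext u
  unfold kk neg1
  by_cases h1 : u < y <;> by_cases h2 : u < 0 <;>
    simp [indicator, h1, h2, not_lt.mp, not_le.mpr]

theorem kk_abs_eq (y : ℝ) : (fun u => ‖kk y u‖) = fun u => (Ico 0 y).indicator (fun _ => (1 : ℝ)) u
    + (Ico y 0).indicator (fun _ => (1 : ℝ)) u := by
  funext u
  unfold kk neg1
  by_cases h1 : u < y <;> by_cases h2 : u < 0 <;>
    simp [indicator, h1, h2, not_lt.mp, not_le.mpr]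

theorem integrable_ind_Ico (a b : ℝ) :
    Integrable ((Ico a b).indicator (fun _ => (1 : ℝ))) := by
  rw [integrable_indicator_iff measurableSet_Ico]
  exact integrableOn_const (by simp)

theorem integral_ind_Ico (a b : ℝ) :
    ∫ u, (Ico a b).indicator (fun _ => (1 : ℝ)) u = max (b - a) 0 := by
  rw [integral_indicator measurableSet_Ico]
  simp [Measure.real, ENNReal.toReal_ofReal']

theorem integrable_kk (y : ℝ) : Integrable (kk y) := by
  rw [kk_eq]
  exact (integrable_ind_Ico _ _).sub (integrable_ind_Ico _ _)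

theorem integral_kk (y : ℝ) : ∫ u, kk y u = y := by
  rw [kk_eq, integral_sub (integrable_ind_Ico _ _) (integrable_ind_Ico _ _), integral_ind_Ico,
    integral_ind_Ico]
  rcases le_total y 0 with h | h
  · rw [max_eq_right (by linarith), max_eq_left (by linarith)]; ring
  · rw [max_eq_left (by linarith), max_eq_right (by linarith)]; ring

theorem integral_norm_kk (y : ℝ) : ∫ u, ‖kk y u‖ = |y| := by
  rw [kk_abs_eq, integral_add (integrable_ind_Ico _ _) (integrable_ind_Ico _ _), integral_ind_Ico,
    integral_ind_Ico]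
  rcases le_total y 0 with h | h
  · rw [max_eq_right (by linarith), max_eq_left (by linarith), abs_of_nonpos h]; ring
  · rw [max_eq_left (by linarith), max_eq_right (by linarith), abs_of_nonneg h]; ring

theorem St_sub_eq (α β : ℝ) (hβ : 0 < β) : (fun u => St α β u - neg1 u) = fun u =>
    kk (-α / β) u + (Ici (-α / β)).indicator (fun u => exp (-α) * exp (-β * u)) u := by
  funext u
  unfold St kk
  by_cases h : u < -α / β
  · have h1 : α + β * u < 0 := by
      rw [lt_div_iff₀ hβ] at h; linarith
    have h2 : (1 : ℝ) ≤ exp (-(α + β * u)) := one_le_exp (by linarith)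
    rw [min_eq_left h2, if_pos h, indicator_of_notMem (by simpa using h)]
    ring
  · have h1 : 0 ≤ α + β * u := by
      rw [not_lt, div_le_iff₀ hβ] at h; linarith
    have h2 : exp (-(α + β * u)) ≤ 1 := exp_le_one_iff.mpr (by linarith)
    rw [min_eq_right h2, if_neg h, indicator_of_mem (by simpa using h), ← exp_add]
    ring_nf

theorem integrable_St_sub (α β : ℝ) (hβ : 0 < β) : Integrable (fun u => St α β u - neg1 u) := by
  rw [St_sub_eq α β hβ]
  refine (integrable_kk _).add ?_
  rw [integrable_indicator_iff measurableSet_Ici, integrableOn_Ici_iff_integrableOn_Ioi]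
  exact (integrableOn_exp_mul_Ioi (by linarith) _).const_mul _

theorem integral_St_sub (α β : ℝ) (hβ : 0 < β) :
    ∫ u, (St α β u - neg1 u) = (1 - α) / β := by
  rw [St_sub_eq α β hβ, integral_add (integrable_kk _), integral_kk,
    integral_indicator measurableSet_Ici, integral_Ici_eq_integral_Ioi, integral_const_mul,
    integral_exp_mul_Ioi (by linarith)]
  · have : -β * (-α / β) = α := by field_simp
    rw [this, exp_neg]
    have := exp_pos α
    field_simp
    ring
  · rw [integrable_indicator_iff measurableSet_Ici, integrableOn_Ici_iff_integrableOn_Ioi]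
    exact (integrableOn_exp_mul_Ioi (by linarith) _).const_mul _

theorem gamma_tail (k p : ℝ) (hk : 0 < k) (hp : 0 ≤ p) :
    IntegrableOn (fun u => u * exp (-(k * u))) (Ioi p) ∧
      ∫ u in Ioi p, u * exp (-(k * u)) = exp (-(k * p)) * (p / k + 1 / k ^ 2) := by
  have hd : ∀ x ∈ Ici p, HasDerivAt (fun u => -(exp (-(k * u)) * (u / k + 1 / k ^ 2)))
      (x * exp (-(k * x))) x := by
    intro x _
    have h1 : HasDerivAt (fun u => exp (-(k * u))) (exp (-(k * x)) * (-(k * 1))) x :=
      ((hasDerivAt_id x).const_mul k).neg.exp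
    have h2 : HasDerivAt (fun u => u / k + 1 / k ^ 2) (1 / k) x :=
      ((hasDerivAt_id x).div_const k).add_const _
    have e : x * exp (-(k * x)) = -(exp (-(k * x)) * (-(k * 1)) * (x / k + 1 / k ^ 2)
        + exp (-(k * x)) * (1 / k)) := by
      field_simp
      ring
    rw [e]
    exact (h1.mul h2).neg
  have hpos : ∀ x ∈ Ioi p, 0 ≤ x * exp (-(k * x)) := fun x hx =>
    mul_nonneg (hp.trans (le_of_lt hx)) (exp_pos _).le
  have hlim : Tendsto (fun u => -(exp (-(k * u)) * (u / k + 1 / k ^ 2))) atTop (𝓝 0) := by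
    have h0 : Tendsto (fun u : ℝ => k * u) atTop atTop := tendsto_id.const_mul_atTop hk
    have h1 := (tendsto_pow_mul_exp_neg_atTop_nhds_zero 1).comp h0
    have h2 := (tendsto_pow_mul_exp_neg_atTop_nhds_zero 0).comp h0
    have h3 := ((h1.add h2).const_mul (1 / k ^ 2)).neg
    simp only [add_zero, mul_zero, neg_zero] at h3
    refine h3.congr fun u => ?_
    simp only [Function.comp]
    field_simp
  refine ⟨integrableOn_Ioi_deriv_of_nonneg' hd hpos hlim, ?_⟩
  rw [integral_Ioi_of_hasDerivAt_of_nonneg' hd hpos hlim]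
  ring

theorem ww_eq : ww = (Ioi 0).indicator (fun u => u * exp (-(1 * u))) := by
  funext u
  unfold ww
  by_cases h : 0 < u <;> simp [indicator, h]

theorem ww_nonneg (u : ℝ) : 0 ≤ ww u := by
  unfold ww
  split_ifs with h
  · positivity
  · exact le_rfl

theorem integrable_ww : Integrable ww := by
  rw [ww_eq, integrable_indicator_iff measurableSet_Ioi]
  exact (gamma_tail 1 0 one_pos le_rfl).1

theorem measurable_St (α β : ℝ) : Measurable (St α β) := by
  unfold St
  fun_prop

theorem St_nonneg (α β u : ℝ) : 0 ≤ St α β u := le_min zero_le_one (exp_pos _).le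

theorem St_le_one (α β u : ℝ) : St α β u ≤ 1 := min_le_left _ _

theorem integrable_ww_mul (S : ℝ → ℝ) (hm : Measurable S) (h0 : ∀ u, 0 ≤ S u)
    (h1 : ∀ u, S u ≤ 1) : Integrable (fun u => ww u * S u) := by
  refine integrable_ww.mul_bdd (c := 1) hm.aestronglyMeasurable (Eventually.of_forall fun u => ?_)
  rw [Real.norm_eq_abs, abs_of_nonneg (h0 u)]
  exact h1 u

theorem exp_third_le : exp (-(1 / 3 : ℝ)) ≤ 18 / 25 := by
  have h := Real.sum_le_exp_of_nonneg (x := 1 / 3) (by norm_num) 3
  simp [Finset.sum_range_succ, Nat.factorial] at h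
  rw [exp_neg, inv_le_comm₀ (exp_pos _) (by norm_num)]
  norm_num at h ⊢
  linarith

/-- the exact-mean case -/
theorem J_St_exact (β : ℝ) (hβ : 0 < β) :
    4 / 9 * exp (-(1 / 3 : ℝ)) ≤ ∫ u, ww u * St (1 - 4 * β / 3) β u := by
  have hk : 0 < 1 + β := by linarith
  rcases le_total β (3 / 4) with h | h
  · have e : (fun u => ww u * St (1 - 4 * β / 3) β u) =
        (Ioi 0).indicator (fun u => exp (-(1 - 4 * β / 3)) * (u * exp (-((1 + β) * u)))) := by
      funext u
      unfold ww St
      by_cases hu : 0 < u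
      · have h1 : exp (-(1 - 4 * β / 3 + β * u)) ≤ 1 := exp_le_one_iff.mpr (by nlinarith)
        rw [if_pos hu, min_eq_right h1, indicator_of_mem (by simpa using hu), mul_assoc,
          ← exp_add, mul_left_comm, ← exp_add]
        ring_nf
      · rw [if_neg hu, indicator_of_notMem (by simpa using hu), zero_mul]
    rw [e, integral_indicator measurableSet_Ioi, integral_const_mul,
      (gamma_tail (1 + β) 0 hk le_rfl).2]
    simp only [mul_zero, neg_zero, exp_zero, zero_div, zero_add, one_mul]
    have h2 : 1 + (2 * β - 1) / 3 ≤ exp ((2 * β - 1) / 3) := by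
      have := add_one_le_exp ((2 * β - 1) / 3); linarith
    have h3 : exp (-(1 - 4 * β / 3)) = exp (-(1 / 3 : ℝ)) * (exp ((2 * β - 1) / 3)) ^ 2 := by
      rw [sq, ← exp_add, ← exp_add]; ring_nf
    have h4 : (1 + (2 * β - 1) / 3) ^ 2 ≤ (exp ((2 * β - 1) / 3)) ^ 2 :=
      pow_le_pow_left₀ (by linarith) h2 2
    rw [h3, mul_assoc, mul_comm (4 / 9 : ℝ)]
    refine mul_le_mul_of_nonneg_left ?_ (exp_pos _).le
    rw [mul_one_div, le_div_iff₀ (by positivity)]
    nlinarith
  · set p : ℝ := 4 / 3 - 1 / β with hp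
    have hβp : β * p = 4 * β / 3 - 1 := by rw [hp]; field_simp
    have hp0 : 0 ≤ p := by
      have : 0 ≤ β * p := by rw [hβp]; linarith
      exact nonneg_of_mul_nonneg_right (by linarith [mul_comm β p]) hβ |> fun h => h
    have e : (fun u => ww u * St (1 - 4 * β / 3) β u) = fun u =>
        ww u - (Ioi p).indicator (fun u => u * exp (-(1 * u))) u
          + (Ioi p).indicator (fun u => exp (β * p) * (u * exp (-((1 + β) * u)))) u := by
      funext u
      unfold St
      by_cases hu : p < u
      · have h1 : exp (-(1 - 4 * β / 3 + β * u)) ≤ 1 := exp_le_one_iff.mpr (by nlinarith)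
        have hu0 : 0 < u := lt_of_le_of_lt hp0 hu
        rw [min_eq_right h1, indicator_of_mem (by simpa using hu),
          indicator_of_mem (by simpa using hu)]
        unfold ww
        rw [if_pos hu0, one_mul, sub_self, zero_add, mul_assoc, ← exp_add, mul_left_comm, ← exp_add,
          hβp]
        ring_nf
      · have h1 : 1 ≤ exp (-(1 - 4 * β / 3 + β * u)) := one_le_exp (by nlinarith [not_lt.mp hu])
        rw [min_eq_left h1, indicator_of_notMem (by simpa using hu),
          indicator_of_notMem (by simpa using hu)]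
        ring
    have i1 : Integrable ((Ioi p).indicator (fun u => u * exp (-(1 * u)))) := by
      rw [integrable_indicator_iff measurableSet_Ioi]; exact (gamma_tail 1 p one_pos hp0).1
    have i2 : Integrable
        ((Ioi p).indicator (fun u => exp (β * p) * (u * exp (-((1 + β) * u))))) := by
      rw [integrable_indicator_iff measurableSet_Ioi]
      exact (gamma_tail (1 + β) p hk hp0).1.const_mul _
    have iw : ∫ u, ww u = 1 := by
      rw [ww_eq, integral_indicator measurableSet_Ioi, (gamma_tail 1 0 one_pos le_rfl).2]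
      simp
    have i3 : Integrable (fun u => ww u - (Ioi p).indicator (fun u => u * exp (-(1 * u))) u) :=
      integrable_ww.sub i1
    rw [e, integral_add i3 i2, integral_sub integrable_ww i1, iw,
      integral_indicator measurableSet_Ioi, integral_indicator measurableSet_Ioi,
      integral_const_mul, (gamma_tail 1 p one_pos hp0).2, (gamma_tail (1 + β) p hk hp0).2,
      ← mul_assoc, ← exp_add]
    have e2 : β * p + -((1 + β) * p) = -(1 * p) := by ring
    rw [e2, one_mul]
    have h3 := exp_third_le
    -- t = 1/β, p = 4/3 - t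
    have hpt : p < 4 / 3 := by
      have : 0 < 1 / β := by positivity
      linarith
    have hq : 1 / (1 + β) = (4 / 3 - p) / (7 / 3 - p) := by
      have h7 : (7 / 3 - p) ≠ 0 := by linarith
      rw [div_eq_div_iff hk.ne' h7]
      nlinarith
    have hexp : 1 + p + p ^ 2 / 2 + p ^ 3 / 6 ≤ exp p := by
      have h := Real.sum_le_exp_of_nonneg hp0 4
      simp [Finset.sum_range_succ, Nat.factorial] at h
      linarith
    have h7 : 0 < 7 / 3 - p := by linarith
    have key : exp (-p) * (p / 1 + 1 / 1 ^ 2) - exp (-p) * (p / (1 + β) + 1 / (1 + β) ^ 2)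
        ≤ 17 / 25 := by
      have e3 : p / (1 + β) + 1 / (1 + β) ^ 2 = p * (1 / (1 + β)) + (1 / (1 + β)) ^ 2 := by
        field_simp
      rw [e3, hq, ← mul_sub]
      have e4 : p / 1 + 1 / 1 ^ 2 - (p * ((4 / 3 - p) / (7 / 3 - p)) + ((4 / 3 - p) / (7 / 3 - p)) ^ 2)
          = (11 / 3 + p / 3 - p ^ 2) / (7 / 3 - p) ^ 2 := by
        obtain ⟨r, hr⟩ : ∃ r : ℝ, r = 7 / 3 - p := ⟨_, rfl⟩
        have hr0 : r ≠ 0 := by rw [hr]; exact h7.ne'
        have hpr : p = 7 / 3 - r := by linarith
        rw [← hr, hpr]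
        field_simp
        ring
      rw [e4, exp_neg, inv_mul_le_iff₀ (exp_pos p), div_le_iff₀ (by positivity)]
      have hr : 0 ≤ 4 / 3 - p := by linarith
      have hpoly : 11 / 3 + p / 3 - p ^ 2
          ≤ (1 + p + p ^ 2 / 2 + p ^ 3 / 6) * (17 / 25) * (7 / 3 - p) ^ 2 := by
        nlinarith [pow_nonneg hp0 5, mul_nonneg (pow_nonneg hp0 4) hr,
          mul_nonneg (pow_nonneg hp0 3) (pow_nonneg hr 2),
          mul_nonneg (pow_nonneg hp0 2) (pow_nonneg hr 3),
          mul_nonneg hp0 (pow_nonneg hr 4), pow_nonneg hr 5]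
      refine hpoly.trans ?_
      gcongr
    linarith

theorem J_St (α β : ℝ) (hβ : 0 < β) (h : α + 4 * β / 3 ≤ 1) :
    4 / 9 * exp (-(1 / 3 : ℝ)) ≤ ∫ u, ww u * St α β u := by
  refine (J_St_exact β hβ).trans (integral_mono ?_ ?_ fun u => ?_)
  · exact integrable_ww_mul _ (measurable_St _ _) (St_nonneg _ _) (St_le_one _ _)
  · exact integrable_ww_mul _ (measurable_St _ _) (St_nonneg _ _) (St_le_one _ _)
  · refine mul_le_mul_of_nonneg_left ?_ (ww_nonneg u)
    unfold St
    exact min_le_min le_rfl (exp_le_exp.mpr (by linarith))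

end Crest.Agent.R280
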