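import Mathlib

set_option autoImplicit false

namespace Crest.Agent.R280

open Set Filter Topology MeasureTheory Real
open scoped ENNReal

/-- the standard exponential law -/
noncomputable def E1 : Measure ℝ :=
  (volume.restrict (Ioi (0 : ℝ))).withDensity fun x => ENNReal.ofReal (exp (-x))

theorem meas_dens : Measurable fun x : ℝ => ENNReal.ofReal (exp (-x)) := by fun_prop

theorem lintegral_E1 (φ : ℝ → ℝ≥0∞) (hφ : Measurable φ) :
    ∫⁻ x, φ x ∂E1 = ∫⁻ x in Ioi 0, ENNReal.ofReal (exp (-x)) * φ x := by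
  unfold E1
  rw [lintegral_withDensity_eq_lintegral_mul _ meas_dens hφ]
  rfl

theorem integral_E1 (φ : ℝ → ℝ) : ∫ x, φ x ∂E1 = ∫ x in Ioi 0, exp (-x) * φ x := by
  unfold E1
  rw [integral_withDensity_eq_integral_toReal_smul meas_dens (by simp)]
  refine integral_congr_ae (Eventually.of_forall fun x => ?_)
  simp [ENNReal.toReal_ofReal (exp_pos _).le]

theorem integrable_E1 (φ : ℝ → ℝ) :
    Integrable φ E1 ↔ IntegrableOn (fun x => exp (-x) * φ x) (Ioi 0) := by
  unfold E1
  rw [integrable_withDensity_iff_integrable_smul' meas_dens (by simp)]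
  refine integrable_congr (Eventually.of_forall fun x => ?_)
  simp [ENNReal.toReal_ofReal (exp_pos _).le]

instance : IsProbabilityMeasure E1 := ⟨by
  have := lintegral_E1 (fun _ => 1) measurable_const
  simp only [lintegral_const, one_mul, mul_one] at this
  rw [this, ← ofReal_integral_eq_lintegral_ofReal (integrableOn_exp_neg_Ioi 0)
    (Eventually.of_forall fun x => (exp_pos _).le), integral_exp_neg_Ioi_zero]
  simp⟩

theorem E1_apply (s : Set ℝ) (hs : MeasurableSet s) :
    E1 s = ENNReal.ofReal (∫ x in Ioi 0, s.indicator (fun x => exp (-x)) x) := by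
  rw [ofReal_integral_eq_lintegral_ofReal ((integrableOn_exp_neg_Ioi 0).indicator hs)
    (Eventually.of_forall fun x => indicator_nonneg (fun y _ => (exp_pos _).le) x),
    ← lintegral_indicator_one hs, lintegral_E1 _ (measurable_one.indicator hs)]
  refine lintegral_congr fun x => ?_
  by_cases h : x ∈ s <;> simp [h]

/-- product of exponential laws -/
noncomputable def PP (N : ℕ) : Measure (Fin N → ℝ) := Measure.pi fun _ => E1

instance (N : ℕ) : IsProbabilityMeasure (PP N) := by unfold PP; infer_instance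

theorem PP_eq (N : ℕ) : PP N = (volume.restrict (Set.pi univ fun _ : Fin N => Ioi (0 : ℝ))).withDensity
    fun x => ENNReal.ofReal (exp (-∑ i, x i)) := by
  unfold PP
  refine Measure.pi_eq fun s hs => ?_
  have hS : MeasurableSet (Set.pi univ s) := MeasurableSet.univ_pi hs
  rw [withDensity_apply _ hS, volume_pi, Measure.restrict_pi_pi, ← lintegral_indicator hS]
  have e : ∀ x : Fin N → ℝ, (Set.pi univ s).indicator (fun x => ENNReal.ofReal (exp (-∑ i, x i))) x
      = ENNReal.ofReal (∏ i, (s i).indicator (fun x => exp (-x)) (x i)) := by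
    intro x
    by_cases h : x ∈ Set.pi univ s
    · rw [indicator_of_mem h]
      congr 1
      rw [← Finset.sum_neg_distrib, exp_sum]
      exact Finset.prod_congr rfl fun i _ => by rw [indicator_of_mem (h i (mem_univ i))]
    · rw [indicator_of_notMem h]
      obtain ⟨i, hi⟩ : ∃ i, x i ∉ s i := by simpa [Set.mem_pi] using h
      rw [Finset.prod_eq_zero (Finset.mem_univ i) (indicator_of_notMem hi _)]
      simp
  simp_rw [e]
  have hi : ∀ i, Integrable ((s i).indicator fun x => exp (-x)) (volume.restrict (Ioi (0 : ℝ))) :=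
    fun i => (integrableOn_exp_neg_Ioi 0).indicator (hs i)
  have hn : ∀ i x, 0 ≤ (s i).indicator (fun x => exp (-x)) x :=
    fun i x => indicator_nonneg (fun y _ => (exp_pos _).le) x
  rw [← ofReal_integral_eq_lintegral_ofReal (Integrable.fintype_prod hi)
    (Eventually.of_forall fun x => Finset.prod_nonneg fun i _ => hn i _),
    integral_fintype_prod_eq_prod,
    ENNReal.ofReal_prod_of_nonneg fun i _ => integral_nonneg (hn i)]
  exact Finset.prod_congr rfl fun i _ => (E1_apply _ (hs i)).symm

theorem integral_orthant (N : ℕ) (f : (Fin N → ℝ) → ℝ) :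
    ∫ x in Set.pi univ (fun _ : Fin N => Ioi (0 : ℝ)), f x * exp (-∑ i, x i) = ∫ x, f x ∂PP N := by
  rw [PP_eq, integral_withDensity_eq_integral_toReal_smul (by fun_prop) (by simp)]
  refine integral_congr_ae (Eventually.of_forall fun x => ?_)
  simp [ENNReal.toReal_ofReal (exp_pos _).le, mul_comm]

theorem mp_cons (N : ℕ) :
    MeasurePreserving (fun p : ℝ × (Fin N → ℝ) => (Fin.cons p.1 p.2 : Fin (N + 1) → ℝ))
      (E1.prod (PP N)) (PP (N + 1)) := by
  have h := (measurePreserving_piFinSuccAbove (fun _ : Fin (N + 1) => E1) 0).symm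
  unfold PP
  convert h using 1
  funext p
  simp [MeasurableEquiv.piFinSuccAbove_symm_apply, Fin.insertNthEquiv]

theorem lintegral_PP_succ (N : ℕ) (G : (Fin (N + 1) → ℝ) → ℝ≥0∞) (hG : Measurable G) :
    ∫⁻ x, G x ∂PP (N + 1) = ∫⁻ t, ∫⁻ y, G (Fin.cons t y) ∂PP N ∂E1 := by
  rw [← (mp_cons N).lintegral_comp hG]
  exact lintegral_prod _ (hG.comp (mp_cons N).measurable).aemeasurable

/-- survival function -/
noncomputable def Sv (c : ℝ) (N : ℕ) (a : Fin N → ℝ) (z : ℝ) : ℝ≥0∞ :=
  PP N {x | z < c + ∑ i, a i * x i}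

theorem measSet_Sv (c : ℝ) (N : ℕ) (a : Fin N → ℝ) (z : ℝ) :
    MeasurableSet {x : Fin N → ℝ | z < c + ∑ i, a i * x i} :=
  measurableSet_lt measurable_const (by fun_prop)

theorem Sv_antitone (c : ℝ) (N : ℕ) (a : Fin N → ℝ) : Antitone (Sv c N a) :=
  fun _ _ h => measure_mono fun _ hx => lt_of_le_of_lt h hx

theorem Sv_succ (c : ℝ) (N : ℕ) (a : Fin (N + 1) → ℝ) (z : ℝ) :
    Sv c (N + 1) a z = ∫⁻ t, Sv c N (Fin.tail a) (z - a 0 * t) ∂E1 := by
  unfold Sv
  rw [← lintegral_indicator_one (measSet_Sv c _ a z),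
    lintegral_PP_succ _ _ (measurable_one.indicator (measSet_Sv c _ a z))]
  refine lintegral_congr fun t => ?_
  rw [← lintegral_indicator_one (measSet_Sv c _ _ _)]
  refine lintegral_congr fun y => ?_
  have : (z < c + ∑ i, a i * (Fin.cons t y : Fin (N + 1) → ℝ) i) ↔
      (z - a 0 * t < c + ∑ i, Fin.tail a i * y i) := by
    rw [Fin.sum_univ_succ]
    simp only [Fin.cons_zero, Fin.cons_succ, Fin.tail]
    constructor <;> intro h <;> linarith
  simp only [indicator, mem_ofPred_eq, this, Pi.one_apply]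

/-- total positivity of order two -/
def TP2 (S : ℝ → ℝ≥0∞) : Prop := ∀ u v d, v ≤ u → 0 ≤ d → S (u + d) * S v ≤ S (v + d) * S u

theorem memoryless (φ : ℝ → ℝ≥0∞) (hφ : Measurable φ) (s : ℝ) (hs : 0 ≤ s) :
    ∫⁻ x, φ x ∂E1 = (∫⁻ x in Ioc 0 s, ENNReal.ofReal (exp (-x)) * φ x)
      + ENNReal.ofReal (exp (-s)) * ∫⁻ x, φ (x + s) ∂E1 := by
  rw [lintegral_E1 φ hφ,
    ← Ioc_union_Ioi_eq_Ioi hs, lintegral_union measurableSet_Ioi Ioc_disjoint_Ioi_same,
    lintegral_E1 (fun x => φ (x + s)) (by fun_prop)]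
  congr 1
  rw [← lintegral_const_mul _ (by fun_prop), ← lintegral_indicator measurableSet_Ioi,
    ← lintegral_indicator measurableSet_Ioi, ← lintegral_add_right_eq_self _ s]
  refine lintegral_congr fun x => ?_
  by_cases h : 0 < x
  · rw [indicator_of_mem (by simpa using h), indicator_of_mem (by simpa using h), ← mul_assoc,
      ← ENNReal.ofReal_mul (exp_pos _).le, ← exp_add]
    ring_nf
  · rw [indicator_of_notMem (by simpa using h), indicator_of_notMem (by simpa using h)]

theorem E1_ae_pos : ∀ᵐ x ∂E1, 0 < x := by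
  unfold E1
  exact (withDensity_absolutelyContinuous _ _).ae_le (ae_restrict_mem measurableSet_Ioi)

theorem TP2_pos (S : ℝ → ℝ≥0∞) (hm : Measurable S) (h : TP2 S) (a : ℝ) (ha : 0 < a) :
    TP2 fun z => ∫⁻ t, S (z - a * t) ∂E1 := by
  intro u v d hvu hd
  set s := (u - v) / a with hs
  have hs0 : 0 ≤ s := div_nonneg (by linarith) ha.le
  have has : a * s = u - v := by rw [hs]; field_simp
  have m1 := memoryless (fun t => S (u - a * t)) (by fun_prop) s hs0
  have m2 := memoryless (fun t => S (u + d - a * t)) (by fun_prop) s hs0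
  have e1 : ∀ x, u - a * (x + s) = v - a * x := fun x => by linarith [mul_add a x s]
  have e2 : ∀ x, u + d - a * (x + s) = v + d - a * x := fun x => by linarith [mul_add a x s]
  simp only [e1, e2] at m1 m2
  simp only
  rw [m1, m2, add_mul, mul_add]
  refine add_le_add ?_ (le_of_eq (by ring))
  rw [← lintegral_mul_const _ (by fun_prop), ← lintegral_const_mul _ (by fun_prop)]
  refine setLIntegral_mono' measurableSet_Ioc fun x hx => ?_
  rw [mul_assoc, mul_left_comm (∫⁻ (t : ℝ), S (v + d - a * t) ∂E1)]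
  refine mul_le_mul' le_rfl ?_
  rw [← lintegral_const_mul _ (by fun_prop), ← lintegral_mul_const _ (by fun_prop)]
  refine lintegral_mono_ae ?_
  filter_upwards [E1_ae_pos] with y hy
  have h1 := h (u - a * x) (v - a * y) d (by nlinarith [hx.2]) hd
  have e3 : u - a * x + d = u + d - a * x := by ring
  have e4 : v - a * y + d = v + d - a * y := by ring
  rwa [e3, e4] at h1

theorem TP2_neg (S : ℝ → ℝ≥0∞) (h : TP2 S) : TP2 fun z => S (-z) := by
  intro u v d hvu hd
  have h1 := h (-v - d) (-u - d) d (by linarith) hd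
  have e1 : -v - d + d = -v := by ring
  have e2 : -u - d + d = -u := by ring
  have e3 : -(u + d) = -u - d := by ring
  have e4 : -(v + d) = -v - d := by ring
  simp only
  rw [e1, e2] at h1
  rw [e3, e4, mul_comm, mul_comm (S (-v - d))]
  exact h1

theorem TP2_step (S : ℝ → ℝ≥0∞) (hm : Measurable S) (h : TP2 S) (a : ℝ) :
    TP2 fun z => ∫⁻ t, S (z - a * t) ∂E1 := by
  rcases lt_trichotomy a 0 with ha | rfl | ha
  · have h1 := TP2_neg _ (TP2_pos (fun z => S (-z)) (by fun_prop) (TP2_neg S h) (-a) (by linarith))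
    convert h1 using 4
    ring_nf
  · simpa using h
  · exact TP2_pos S hm h a ha

theorem TP2_Sv (c : ℝ) (N : ℕ) (a : Fin N → ℝ) : TP2 (Sv c N a) := by
  induction N with
  | zero =>
    intro u v d hvu hd
    by_cases h : u + d < c
    · have h1 : Sv c 0 a (v + d) = 1 := by
        unfold Sv
        have : {x : Fin 0 → ℝ | v + d < c + ∑ i, a i * x i} = univ := by
          ext x; simp; linarith
        rw [this, measure_univ]
      have h2 : Sv c 0 a u = 1 := by
        unfold Sv
        have : {x : Fin 0 → ℝ | u < c + ∑ i, a i * x i} = univ := by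
          ext x; simp; linarith
        rw [this, measure_univ]
      rw [h1, h2]
      exact mul_le_mul' prob_le_one prob_le_one
    · have h1 : Sv c 0 a (u + d) = 0 := by
        unfold Sv
        have : {x : Fin 0 → ℝ | u + d < c + ∑ i, a i * x i} = ∅ := by
          ext x; simpa using h
        rw [this, measure_empty]
      rw [h1, zero_mul]
      exact zero_le
  | succ N ih =>
    have : Sv c (N + 1) a = fun z => ∫⁻ t, Sv c N (Fin.tail a) (z - a 0 * t) ∂E1 :=
      funext (Sv_succ c N a)
    rw [this]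
    exact TP2_step _ (Sv_antitone _ _ _).measurable (ih _) _

theorem E1_Ioc_pos (p q : ℝ) (hp : 0 ≤ p) (hpq : p < q) : 0 < E1 (Ioc p q) := by
  rw [pos_iff_ne_zero]
  intro h
  unfold E1 at h
  rw [withDensity_apply_eq_zero meas_dens] at h
  have : {x : ℝ | ENNReal.ofReal (exp (-x)) ≠ 0} = univ := by
    ext x; simp [exp_pos]
  have hsub : Ioc p q ⊆ Ioi 0 := fun x hx => lt_of_le_of_lt hp hx.1
  rw [this, univ_inter, Measure.restrict_apply measurableSet_Ioc, inter_eq_left.mpr hsub] at h
  simp at h
  linarith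

theorem Sv_pos (c : ℝ) (N : ℕ) (a : Fin N → ℝ) (j : Fin N) (hj : 0 < a j) (z : ℝ) :
    0 < Sv c N a z := by
  classical
  set R : ℝ := max 0 ((z - c + ∑ i, |a i|) / a j) with hR
  have hR0 : 0 ≤ R := le_max_left _ _
  have hR1 : z - c + ∑ i, |a i| ≤ a j * R := by
    have : (z - c + ∑ i, |a i|) / a j ≤ R := le_max_right _ _
    rw [div_le_iff₀ hj] at this; linarith
  set s : Fin N → Set ℝ := fun i => if i = j then Ioc R (R + 1) else Ioc 0 1 with hs
  have hsub : Set.pi univ s ⊆ {x | z < c + ∑ i, a i * x i} := by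
    intro x hx
    have h1 : R < x j := by
      have := hx j (mem_univ j); simp only [hs, if_true] at this; exact this.1
    have h2 : ∀ i ∈ Finset.univ.erase j, -|a i| ≤ a i * x i := by
      intro i hi
      have hij : i ≠ j := Finset.ne_of_mem_erase hi
      have := hx i (mem_univ i)
      simp only [hs, if_neg hij] at this
      have h3 := neg_abs_le (a i)
      have h4 := abs_nonneg (a i)
      nlinarith [this.1, this.2]
    have h3 := Finset.sum_le_sum h2
    have h4 := Finset.add_sum_erase Finset.univ (fun i => a i * x i) (Finset.mem_univ j)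
    have h5 := Finset.add_sum_erase Finset.univ (fun i => |a i|) (Finset.mem_univ j)
    rw [Finset.sum_neg_distrib] at h3
    have h6 := abs_nonneg (a j)
    have h7 : a j * R < a j * x j := mul_lt_mul_of_pos_left h1 hj
    simp only [mem_ofPred_eq] at h4 h5 ⊢
    linarith
  refine lt_of_lt_of_le ?_ (measure_mono hsub)
  unfold PP
  rw [Measure.pi_pi, pos_iff_ne_zero, Finset.prod_ne_zero_iff]
  intro i _
  simp only [hs]
  split_ifs
  · exact (E1_Ioc_pos _ _ hR0 (by linarith)).ne'
  · exact (E1_Ioc_pos _ _ le_rfl one_pos).ne'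

end Crest.Agent.R280
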