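import Mathlib
import Crest.Agent.R280.Convex
import Crest.Agent.R280.Expo

set_option autoImplicit false

namespace Crest.Agent.R280

open Set Filter Topology MeasureTheory Real

theorem main_ineq (S : ℝ → ℝ) (hm : Measurable S) (h0 : ∀ u, 0 ≤ S u) (hle : ∀ u, S u ≤ 1)
    (hint : Integrable (fun u => S u - neg1 u)) (α β c u₁ u₂ : ℝ) (hβ : 0 < β)
    (hin : ∀ u, u₁ ≤ u → u ≤ u₂ → exp (-(α + β * u)) ≤ S u ∧ c ≤ ww u)
    (hout : ∀ u, u ≤ u₁ ∨ u₂ ≤ u → S u ≤ exp (-(α + β * u)) ∧ ww u ≤ c) :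
    (∫ u, ww u * St α β u) - c * ((1 - α) / β - ∫ u, (S u - neg1 u)) ≤ ∫ u, ww u * S u := by
  have i1 := integrable_ww_mul S hm h0 hle
  have i2 := integrable_ww_mul _ (measurable_St α β) (St_nonneg _ _) (St_le_one _ _)
  have i3 := integrable_St_sub α β hβ
  have hpt : ∀ u, ww u * St α β u - c * (St α β u - neg1 u) ≤
      ww u * S u - c * (S u - neg1 u) := by
    intro u
    by_cases h : u₁ ≤ u ∧ u ≤ u₂
    · obtain ⟨h1, h2⟩ := hin u h.1 h.2
      have h3 : St α β u ≤ S u := (min_le_right _ _).trans h1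
      nlinarith
    · have h' : u ≤ u₁ ∨ u₂ ≤ u := by
        rcases not_and_or.mp h with h | h
        · exact Or.inl (le_of_lt (not_le.mp h))
        · exact Or.inr (le_of_lt (not_le.mp h))
      obtain ⟨h1, h2⟩ := hout u h'
      have h3 : S u ≤ St α β u := le_min (hle u) h1
      nlinarith
  have h := integral_mono (i2.sub (i3.const_mul c)) (i1.sub (hint.const_mul c)) hpt
  have e1 : ∫ u, ((fun u => ww u * St α β u) - fun u => c * (St α β u - neg1 u)) u
      = (∫ u, ww u * St α β u) - c * ((1 - α) / β) := by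
    simp only [Pi.sub_apply]
    rw [integral_sub i2 (i3.const_mul c), integral_const_mul, integral_St_sub α β hβ]
  have e2 : ∫ u, ((fun u => ww u * S u) - fun u => c * (S u - neg1 u)) u
      = (∫ u, ww u * S u) - c * ∫ u, (S u - neg1 u) := by
    simp only [Pi.sub_apply]
    rw [integral_sub i1 (hint.const_mul c), integral_const_mul]
  rw [e1, e2] at h
  linarith

/-- left level point -/
noncomputable def u1 (δ : ℝ) : ℝ := δ / (exp δ - 1)

theorem exp_sub_one_pos {δ : ℝ} (hδ : 0 < δ) : 0 < exp δ - 1 := by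
  have := add_one_le_exp δ; linarith

theorem u1_pos {δ : ℝ} (hδ : 0 < δ) : 0 < u1 δ := div_pos hδ (exp_sub_one_pos hδ)

theorem u1_le_one {δ : ℝ} (hδ : 0 < δ) : u1 δ ≤ 1 := by
  unfold u1
  rw [div_le_one (exp_sub_one_pos hδ)]
  have := add_one_le_exp δ; linarith

theorem level_in {δ : ℝ} (hδ : 0 < δ) (u : ℝ) (h1 : u1 δ ≤ u) (h2 : u ≤ u1 δ + δ) :
    u1 δ * exp (-u1 δ) ≤ ww u := by
  have hp := u1_pos hδ
  have hu : 0 < u := hp.trans_le h1
  have h := chord_in exp convexOn_exp hδ (u := u - u1 δ) (by linarith) (by linarith)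
  have he := exp_sub_one_pos hδ
  have e : exp 0 + (exp δ - exp 0) / (δ - 0) * (u - u1 δ - 0) = u / u1 δ := by
    unfold u1
    simp only [exp_zero, sub_zero]
    field_simp
    ring
  rw [e, le_div_iff₀ hp] at h
  unfold ww
  rw [if_pos hu]
  have e2 : exp (-u1 δ) = exp (u - u1 δ) * exp (-u) := by rw [← exp_add]; ring_nf
  rw [e2, ← mul_assoc]
  exact mul_le_mul_of_nonneg_right (by linarith) (exp_pos _).le

theorem level_out {δ : ℝ} (hδ : 0 < δ) (u : ℝ) (h1 : u ≤ u1 δ ∨ u1 δ + δ ≤ u) :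
    ww u ≤ u1 δ * exp (-u1 δ) := by
  have hp := u1_pos hδ
  unfold ww
  split_ifs with hu
  · have h := chord_out exp convexOn_exp hδ (u := u - u1 δ)
      (h1.imp (fun h => by linarith) (fun h => by linarith))
    have he := exp_sub_one_pos hδ
    have e : exp 0 + (exp δ - exp 0) / (δ - 0) * (u - u1 δ - 0) = u / u1 δ := by
      unfold u1
      simp only [exp_zero, sub_zero]
      field_simp
      ring
    rw [e, div_le_iff₀ hp] at h
    have e2 : exp (-u1 δ) = exp (u - u1 δ) * exp (-u) := by rw [← exp_add]; ring_nf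
    rw [e2, ← mul_assoc]
    exact mul_le_mul_of_nonneg_right (by linarith) (exp_pos _).le
  · positivity

theorem partA (S : ℝ → ℝ) (hpos : ∀ u, 0 < S u) (hle : ∀ u, S u ≤ 1) (hanti : Antitone S)
    (htp : ∀ u v d, v ≤ u → 0 ≤ d → S (u + d) * S v ≤ S (v + d) * S u)
    (hbot : Tendsto S atBot (𝓝 1)) (htop : Tendsto S atTop (𝓝 0))
    (hint : Integrable (fun u => S u - neg1 u)) (hmean : ∫ u, (S u - neg1 u) = 4 / 3) :
    4 / 9 * exp (-(1 / 3 : ℝ)) ≤ ∫ u, ww u * S u := by
  set H : ℝ → ℝ := fun u => -log (S u) with hH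
  have hSH : ∀ u, S u = exp (-H u) := fun u => by simp [hH, exp_log (hpos u)]
  have hH0 : ∀ u, 0 ≤ H u := fun u => by
    have := log_nonpos (hpos u).le (hle u); simp only [hH]; linarith
  have hmono : Monotone H := fun x y hxy => by
    have := log_le_log (hpos y) (hanti hxy); simp only [hH]; linarith
  have hconv : ConvexOn ℝ univ H := by
    refine convexOn_of_monotone_midpoint H hmono fun x y hxy => ?_
    have h := htp ((x + y) / 2) x ((y - x) / 2) (by linarith) (by linarith)
    have e1 : (x + y) / 2 + (y - x) / 2 = y := by ring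
    have e2 : x + (y - x) / 2 = (x + y) / 2 := by ring
    rw [e1, e2] at h
    have h2 := log_le_log (mul_pos (hpos _) (hpos _)) h
    rw [log_mul (hpos _).ne' (hpos _).ne', log_mul (hpos _).ne' (hpos _).ne'] at h2
    simp only [hH]; linarith
  have hcont : Continuous H := by
    have := hconv.continuousOn isOpen_univ
    exact continuousOn_univ.mp this
  have hm : Measurable S := hanti.measurable
  have h0 : ∀ u, 0 ≤ S u := fun u => (hpos u).le
  -- a lower bound on `H` near `-∞` is nonpositive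
  have hlow : ∀ (b x : ℝ), (∀ u, u ≤ x → b ≤ H u) → b ≤ 0 := by
    intro b x hb
    have h1 : ∀ᶠ u in atBot, S u ≤ exp (-b) := by
      filter_upwards [eventually_le_atBot x] with u hu
      rw [hSH]; exact exp_le_exp.mpr (by linarith [hb u hu])
    have h2 := le_of_tendsto hbot h1
    have := one_le_exp_iff.mp h2
    linarith
  -- Grünbaum
  have hgr : H (4 / 3) ≤ 1 := by
    obtain ⟨β, hβ⟩ := exists_support H hconv (4 / 3)
    rcases le_or_gt β 0 with hb | hb
    · have := hlow (H (4 / 3)) (4 / 3) fun u hu => by nlinarith [hβ u]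
      linarith
    · have h := integral_mono hint (integrable_St_sub (H (4 / 3) - β * (4 / 3)) β hb) fun u => by
        have : S u ≤ St (H (4 / 3) - β * (4 / 3)) β u := by
          refine le_min (hle u) ?_
          rw [hSH]; exact exp_le_exp.mpr (by linarith [hβ u])
        simp only; linarith
      rw [hmean, integral_St_sub _ _ hb, le_div_iff₀ hb] at h
      linarith
  set bb : ℝ → ℝ := fun δ => (H (u1 δ + δ) - H (u1 δ)) / δ with hbb
  set F : ℝ → ℝ := fun δ => H (u1 δ) + bb δ * (4 / 3 - u1 δ) with hF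
  have hcin : ∀ δ, 0 < δ → ∀ u, u1 δ ≤ u → u ≤ u1 δ + δ →
      H u ≤ H (u1 δ) + bb δ * (u - u1 δ) := by
    intro δ hδ u h1 h2
    have := chord_in H hconv (x := u1 δ) (y := u1 δ + δ) (by linarith) h1 h2
    simpa [hbb] using this
  have hcout : ∀ δ, 0 < δ → ∀ u, u ≤ u1 δ ∨ u1 δ + δ ≤ u →
      H (u1 δ) + bb δ * (u - u1 δ) ≤ H u := by
    intro δ hδ u h1
    have := chord_out H hconv (x := u1 δ) (y := u1 δ + δ) (by linarith) h1
    simpa [hbb] using this
  have hbb0 : ∀ δ, 0 < δ → 0 ≤ bb δ := fun δ hδ =>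
    div_nonneg (sub_nonneg.mpr (hmono (by linarith))) hδ.le
  have good : ∀ δ, 0 < δ → 0 < bb δ → F δ ≤ 1 →
      4 / 9 * exp (-(1 / 3 : ℝ)) - u1 δ * exp (-u1 δ) * ((1 - F δ) / bb δ)
        ≤ ∫ u, ww u * S u := by
    intro δ hδ hb hF1
    have h := main_ineq S hm h0 hle hint (H (u1 δ) - bb δ * u1 δ) (bb δ) (u1 δ * exp (-u1 δ))
      (u1 δ) (u1 δ + δ) hb
      (fun u h1 h2 => ⟨by rw [hSH]; exact exp_le_exp.mpr (by linarith [hcin δ hδ u h1 h2]),
        level_in hδ u h1 h2⟩)
      (fun u h1 => ⟨by rw [hSH]; exact exp_le_exp.mpr (by linarith [hcout δ hδ u h1]),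
        level_out hδ u h1⟩)
    have h2 := J_St (H (u1 δ) - bb δ * u1 δ) (bb δ) hb (by simp only [hF] at hF1; linarith)
    rw [hmean] at h
    have e : (1 - (H (u1 δ) - bb δ * u1 δ)) / bb δ - 4 / 3 = (1 - F δ) / bb δ := by
      simp only [hF]; field_simp; ring
    rw [e] at h
    linarith
  have exact_case : ∀ δ, 0 < δ → F δ = 1 → 4 / 9 * exp (-(1 / 3 : ℝ)) ≤ ∫ u, ww u * S u := by
    intro δ hδ hF1
    have hb : 0 < bb δ := by
      rcases (hbb0 δ hδ).eq_or_lt with h | h
      · exfalso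
        have h1 : H (u1 δ) = 1 := by simp only [hF] at hF1; rw [← h] at hF1; linarith
        have := hlow 1 (u1 δ) fun u hu => by
          have := hcout δ hδ u (Or.inl hu)
          rw [← h] at this; linarith
        linarith
      · exact h
    have := good δ hδ hb hF1.le
    rw [hF1] at this
    simpa using this
  have hFcont : ContinuousOn F (Ioi 0) := by
    have hu : ContinuousOn u1 (Ioi 0) := by
      unfold u1
      exact continuousOn_id.div (by fun_prop) fun δ hδ => (exp_sub_one_pos hδ).ne'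
    have h1 : ContinuousOn (fun δ => H (u1 δ)) (Ioi 0) := hcont.comp_continuousOn hu
    have h2 : ContinuousOn (fun δ => H (u1 δ + δ)) (Ioi 0) :=
      hcont.comp_continuousOn (hu.add continuousOn_id)
    have h3 : ContinuousOn bb (Ioi 0) :=
      (h2.sub h1).div continuousOn_id fun δ hδ => ne_of_gt hδ
    exact h1.add (h3.mul (continuousOn_const.sub hu))
  have hF0 : F (1 / 3) ≤ 1 := by
    have := hcout (1 / 3) (by norm_num) (4 / 3) (Or.inr (by
      have := u1_le_one (δ := 1 / 3) (by norm_num); linarith))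
    simp only [hF]; linarith
  -- a point where `H` exceeds `H 1`
  obtain ⟨R, hR⟩ : ∃ R, S R < S 1 := (htop.eventually (gt_mem_nhds (hpos 1))).exists
  have hγ : 0 < H R - H 1 := by
    have := log_lt_log (hpos R) hR; simp only [hH]; linarith
  set γ := H R - H 1 with hγd
  have hall : ∀ δ, max (1 / 3) R ≤ δ →
      4 / 9 * exp (-(1 / 3 : ℝ)) - 6 / γ * δ⁻¹ ≤ ∫ u, ww u * S u := by
    intro δ hδ
    have hδ3 : 1 / 3 ≤ δ := (le_max_left _ _).trans hδ
    have hδR : R ≤ δ := (le_max_right _ _).trans hδ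
    have hδ0 : 0 < δ := by linarith
    have hnn : 0 ≤ 6 / γ * δ⁻¹ := by positivity
    rcases le_total (F δ) 1 with h | h
    · have hu0 := u1_pos hδ0
      have hu1 := u1_le_one hδ0
      have hg : γ ≤ H (u1 δ + δ) - H (u1 δ) := by
        have a1 : H R ≤ H (u1 δ + δ) := hmono (by linarith)
        have a2 : H (u1 δ) ≤ H 1 := hmono hu1
        linarith
      have hbγ : γ / δ ≤ bb δ := div_le_div_of_nonneg_right hg hδ0.le
      have hb : 0 < bb δ := lt_of_lt_of_le (div_pos hγ hδ0) hbγ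
      have h1 := good δ hδ0 hb h
      have hF1 : 1 - F δ ≤ 1 := by
        have := hH0 (u1 δ)
        have : 0 ≤ bb δ * (4 / 3 - u1 δ) := mul_nonneg hb.le (by linarith)
        simp only [hF]; linarith
      have h2 : (1 - F δ) / bb δ ≤ δ / γ := by
        calc (1 - F δ) / bb δ ≤ 1 / bb δ := div_le_div_of_nonneg_right hF1 hb.le
          _ ≤ 1 / (γ / δ) := one_div_le_one_div_of_le (div_pos hγ hδ0) hbγ
          _ = δ / γ := by rw [one_div_div]
      have h3 : u1 δ * exp (-u1 δ) ≤ 6 / δ ^ 2 := by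
        have a1 : exp (-u1 δ) ≤ 1 := exp_le_one_iff.mpr (by linarith)
        have a2 : u1 δ ≤ 6 / δ ^ 2 := by
          unfold u1
          rw [div_le_div_iff₀ (exp_sub_one_pos hδ0) (by positivity)]
          have h := Real.sum_le_exp_of_nonneg hδ0.le 4
          simp [Finset.sum_range_succ, Nat.factorial] at h
          nlinarith [sq_nonneg δ]
        nlinarith
      have h4 : u1 δ * exp (-u1 δ) * ((1 - F δ) / bb δ) ≤ 6 / δ ^ 2 * (δ / γ) :=
        mul_le_mul h3 h2 (div_nonneg (by linarith) hb.le) (by positivity)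
      have e : 6 / δ ^ 2 * (δ / γ) = 6 / γ * δ⁻¹ := by field_simp
      linarith
    · have hsub : Icc (1 / 3 : ℝ) δ ⊆ Ioi 0 := fun x hx => lt_of_lt_of_le (by norm_num) hx.1
      obtain ⟨δ', hδ', hF'⟩ := intermediate_value_Icc hδ3 (hFcont.mono hsub) ⟨hF0, h⟩
      have := exact_case δ' (hsub hδ') hF'
      linarith
  have hlim : Tendsto (fun δ : ℝ => 4 / 9 * exp (-(1 / 3 : ℝ)) - 6 / γ * δ⁻¹) atTop
      (𝓝 (4 / 9 * exp (-(1 / 3 : ℝ)) - 6 / γ * 0)) :=
    tendsto_const_nhds.sub (tendsto_const_nhds.mul tendsto_inv_atTop_zero)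
  have := le_of_tendsto hlim (by
    filter_upwards [eventually_ge_atTop (max (1 / 3) R)] with δ hδ using hall δ hδ)
  simpa using this

end Crest.Agent.R280
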