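import Mathlib
import Crest.Prelude.Def_TruncExpWeight
import Crest.Agent.R280.PartA
import Crest.Agent.R280.Law

set_option autoImplicit false

namespace Crest.Agent.R280

open Set Filter Topology MeasureTheory Real Crest.AlgGeometry
open scoped ENNReal

theorem measurable_neg1 : Measurable neg1 := by
  unfold neg1
  exact Measurable.ite measurableSet_Iio measurable_const measurable_const

theorem integral_ww : ∫ u, ww u = 1 := by
  rw [ww_eq, integral_indicator measurableSet_Ioi, (gamma_tail 1 0 one_pos le_rfl).2]
  simp

theorem one_sub_g (y : ℝ) : ∫ u, ww u * (if u < y then 1 else 0) = 1 - truncExpWeight y := by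
  unfold truncExpWeight
  split_ifs with hy
  · have : (fun u => ww u * (if u < y then (1 : ℝ) else 0)) = fun _ => 0 := by
      funext u
      unfold ww
      by_cases h : u < y
      · rw [if_neg (by linarith), zero_mul]
      · rw [if_neg h, mul_zero]
    rw [this]; simp
  · have hy' : 0 < y := not_le.mp hy
    have : (fun u => ww u * (if u < y then (1 : ℝ) else 0)) =
        fun u => ww u - (Ici y).indicator (fun u => u * exp (-(1 * u))) u := by
      funext u
      by_cases h : u < y
      · rw [if_pos h, indicator_of_notMem (by simpa using h)]; ring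
      · rw [if_neg h, indicator_of_mem (by simpa using h)]
        unfold ww
        rw [if_pos (by linarith [not_lt.mp h])]
        simp
    have i1 : Integrable ((Ici y).indicator (fun u => u * exp (-(1 * u)))) := by
      rw [integrable_indicator_iff measurableSet_Ici, integrableOn_Ici_iff_integrableOn_Ioi]
      exact (gamma_tail 1 y one_pos hy'.le).1
    rw [this, integral_sub integrable_ww i1, integral_ww, integral_indicator measurableSet_Ici,
      integral_Ici_eq_integral_Ioi, (gamma_tail 1 y one_pos hy'.le).2]
    simp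
    ring

theorem measurable_g : Measurable truncExpWeight := by
  unfold truncExpWeight
  exact Measurable.ite measurableSet_Iic measurable_const (by fun_prop)

theorem g_nonneg (y : ℝ) : 0 ≤ truncExpWeight y := by
  unfold truncExpWeight
  split_ifs with h
  · exact zero_le_one
  · have := not_le.mp h; positivity

theorem g_le_one (y : ℝ) : truncExpWeight y ≤ 1 := by
  unfold truncExpWeight
  split_ifs with h
  · exact le_rfl
  · rw [exp_neg, mul_inv_le_iff₀ (exp_pos _)]
    have := add_one_le_exp y; linarith

section General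

variable {Ω : Type*} [MeasurableSpace Ω] (P : Measure Ω) [IsProbabilityMeasure P] (Y : Ω → ℝ)

theorem integral_ite (hY : Measurable Y) (u : ℝ) :
    ∫ ω, (if u < Y ω then (1 : ℝ) else 0) ∂P = P.real {ω | u < Y ω} := by
  rw [← integral_indicator_one (measurableSet_lt measurable_const hY)]
  refine integral_congr_ae (Eventually.of_forall fun ω => ?_)
  simp [indicator]

theorem meas_ite (hY : Measurable Y) :
    Measurable fun p : Ω × ℝ => (if p.2 < Y p.1 then (1 : ℝ) else 0) :=
  Measurable.ite (measurableSet_lt measurable_snd (hY.comp measurable_fst)) measurable_const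
    measurable_const

theorem surv_mean (hY : Measurable Y) (hi : Integrable Y P) :
    Integrable (fun u => P.real {ω | u < Y ω} - neg1 u) ∧
      ∫ u, (P.real {ω | u < Y ω} - neg1 u) = ∫ ω, Y ω ∂P := by
  have hm : Measurable fun p : Ω × ℝ => kk (Y p.1) p.2 :=
    (meas_ite Y hY).sub (measurable_neg1.comp measurable_snd)
  have hI : Integrable (fun p : Ω × ℝ => kk (Y p.1) p.2) (P.prod volume) := by
    rw [integrable_prod_iff hm.aestronglyMeasurable]
    refine ⟨Eventually.of_forall fun ω => integrable_kk (Y ω), ?_⟩
    simp only [integral_norm_kk]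
    exact hi.abs
  have e : ∀ u, ∫ ω, kk (Y ω) u ∂P = P.real {ω | u < Y ω} - neg1 u := by
    intro u
    unfold kk
    rw [integral_sub _ (integrable_const _), integral_ite P Y hY]
    · simp
    · refine Integrable.of_bound (C := 1) ?_ (Eventually.of_forall fun ω => ?_)
      · exact (Measurable.ite (measurableSet_lt measurable_const hY) measurable_const
          measurable_const).aestronglyMeasurable
      · split_ifs <;> simp
  constructor
  · have := hI.integral_prod_right
    simpa only [e] using this
  · have := integral_integral_swap (f := fun ω u => kk (Y ω) u) hI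
    simp only [e, integral_kk] at this
    exact this.symm

theorem surv_ww (hY : Measurable Y) :
    ∫ u, ww u * P.real {ω | u < Y ω} = 1 - ∫ ω, truncExpWeight (Y ω) ∂P := by
  have hI : Integrable (fun p : Ω × ℝ => ww p.2 * (if p.2 < Y p.1 then (1 : ℝ) else 0))
      (P.prod volume) := by
    refine (integrable_ww.comp_snd P).mul_bdd (c := 1) (meas_ite Y hY).aestronglyMeasurable
      (Eventually.of_forall fun p => ?_)
    split_ifs <;> simp
  have := integral_integral_swap (f := fun ω u => ww u * (if u < Y ω then (1 : ℝ) else 0)) hI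
  simp only [one_sub_g, integral_const_mul, integral_ite P Y hY] at this
  rw [← this, integral_sub (integrable_const _)]
  · simp
  · refine Integrable.of_bound (C := 1) (measurable_g.comp hY).aestronglyMeasurable
      (Eventually.of_forall fun ω => ?_)
    rw [Real.norm_eq_abs, abs_of_nonneg (g_nonneg _)]
    exact g_le_one _

theorem surv_cdf (hY : Measurable Y) (u : ℝ) :
    P.real {ω | u < Y ω} = 1 - ProbabilityTheory.cdf (P.map Y) u := by
  haveI : IsProbabilityMeasure (P.map Y) := Measure.isProbabilityMeasure_map hY.aemeasurable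
  rw [ProbabilityTheory.cdf_eq_real, map_measureReal_apply hY measurableSet_Iic,
    ← probReal_compl_eq_one_sub (hY measurableSet_Iic)]
  congr 1
  ext ω
  simp

end General

theorem integrable_id_E1 : Integrable (fun x : ℝ => x) E1 := by
  rw [integrable_E1]
  refine (gamma_tail 1 0 one_pos le_rfl).1.congr_fun (fun x _ => ?_) measurableSet_Ioi
  simp [mul_comm]

theorem integral_id_E1 : ∫ x, x ∂E1 = 1 := by
  rw [integral_E1]
  have := (gamma_tail 1 0 one_pos le_rfl).2
  simpa [mul_comm] using this

theorem upper (N : ℕ) (a : Fin N → ℝ) (ha : ∑ i, a i = 0) :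
    ∫ x, truncExpWeight (4 / 3 + ∑ i, a i * x i) ∂PP N ≤ 1 - 4 / 9 * exp (-(1 / 3 : ℝ)) := by
  by_cases hpos : ∃ j, 0 < a j
  · obtain ⟨j, hj⟩ := hpos
    set Y : (Fin N → ℝ) → ℝ := fun x => 4 / 3 + ∑ i, a i * x i with hYd
    have hY : Measurable Y := by rw [hYd]; fun_prop
    have hev : ∀ i, Integrable (fun x : Fin N → ℝ => a i * x i) (PP N) := fun i =>
      ((measurePreserving_eval (fun _ : Fin N => E1) i).integrable_comp_of_integrable
        integrable_id_E1).const_mul _
    have hev2 : ∀ i, ∫ x, a i * x i ∂PP N = a i := fun i => by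
      rw [integral_const_mul]
      have := integral_comp_eval (μ := fun _ : Fin N => E1) (i := i) (f := fun t : ℝ => t)
        measurable_id.aestronglyMeasurable
      unfold PP
      rw [this, integral_id_E1, mul_one]
    have hi : Integrable Y (PP N) :=
      (integrable_const _).add (integrable_finsetSum _ fun i _ => hev i)
    have hmean : ∫ x, Y x ∂PP N = 4 / 3 := by
      rw [hYd]
      simp only
      rw [integral_add (integrable_const _) (integrable_finsetSum _ fun i _ => hev i),
        integral_finsetSum _ fun i _ => hev i]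
      simp [hev2, ha]
    have hSv : ∀ u, (PP N).real {x | u < Y x} = (Sv (4 / 3) N a u).toReal := fun u => rfl
    have hfin : ∀ u, Sv (4 / 3) N a u ≠ ∞ := fun u => measure_ne_top _ _
    have h := partA (fun u => (PP N).real {x | u < Y x})
      (fun u => ENNReal.toReal_pos (Sv_pos _ N a j hj u).ne' (hfin u))
      (fun u => measureReal_le_one)
      (fun u v huv => ENNReal.toReal_mono (hfin u) (Sv_antitone _ N a huv))
      (fun u v d h1 h2 => by
        simp only [hSv, ← ENNReal.toReal_mul]
        exact ENNReal.toReal_mono (ENNReal.mul_ne_top (hfin _) (hfin _)) (TP2_Sv _ N a u v d h1 h2))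
      (by
        simp only [surv_cdf (PP N) Y hY]
        simpa using (ProbabilityTheory.tendsto_cdf_atBot ((PP N).map Y)).const_sub 1)
      (by
        simp only [surv_cdf (PP N) Y hY]
        simpa using (ProbabilityTheory.tendsto_cdf_atTop ((PP N).map Y)).const_sub 1)
      (surv_mean (PP N) Y hY hi).1 ((surv_mean (PP N) Y hY hi).2.trans hmean)
    rw [surv_ww (PP N) Y hY] at h
    linarith
  · push Not at hpos
    have h0 : ∀ i, a i = 0 := fun i =>
      (Finset.sum_eq_zero_iff_of_nonpos fun i _ => hpos i).mp ha i (Finset.mem_univ i)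
    simp only [h0, zero_mul, Finset.sum_const_zero, add_zero, integral_const, probReal_univ,
      smul_eq_mul, one_mul]
    unfold truncExpWeight
    rw [if_neg (by norm_num)]
    have h1 := exp_third_le
    have h2 : exp (-(4 / 3 : ℝ)) ≤ 51 / 175 := by
      have h := Real.sum_le_exp_of_nonneg (x := 4 / 3) (by norm_num) 4
      simp [Finset.sum_range_succ, Nat.factorial] at h
      rw [exp_neg, inv_le_comm₀ (exp_pos _) (by norm_num)]
      norm_num at h ⊢
      linarith
    linarith

theorem E1_Ioi_le (r : ℝ) : E1 (Ioi r) ≤ ENNReal.ofReal (exp (-r)) := by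
  unfold E1
  rw [withDensity_apply _ measurableSet_Ioi, ← integral_exp_neg_Ioi,
    ofReal_integral_eq_lintegral_ofReal (integrableOn_exp_neg_Ioi r)
      (Eventually.of_forall fun x => (exp_pos _).le)]
  exact lintegral_mono' (Measure.restrict_mono le_rfl Measure.restrict_le_self) le_rfl

theorem exp_moment (k : ℝ) (hk : 0 < k) :
    Integrable (fun t => exp (-(k * t))) E1 ∧ ∫ t, exp (-(k * t)) ∂E1 = 1 / (1 + k) := by
  have e : (fun t => exp (-t) * exp (-(k * t))) = fun t => exp (-(1 + k) * t) := by
    funext t; rw [← exp_add]; ring_nf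
  constructor
  · rw [integrable_E1, e]
    exact integrableOn_exp_mul_Ioi (by linarith) _
  · rw [integral_E1, e, integral_exp_mul_Ioi (by linarith)]
    have : (1 + k) ≠ 0 := by linarith
    simp only [mul_zero, exp_zero]
    field_simp

theorem Sv_special (c k : ℝ) (hk : 0 < k) (n : ℕ) (u : ℝ) :
    (Sv c (n + 1) (Fin.cons 2 fun _ => -(2 * k)) u).toReal
      ≤ exp (-((u - c) / 2)) * (1 / (1 + k)) ^ n := by
  refine ENNReal.toReal_le_of_le_ofReal (by positivity) ?_
  unfold Sv
  have hms := measSet_Sv c (n + 1) (Fin.cons 2 fun _ => -(2 * k)) u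
  rw [← lintegral_indicator_one hms, ← (mp_cons n).lintegral_comp (measurable_one.indicator hms)]
  refine (lintegral_prod_symm _
    ((measurable_one.indicator hms).comp (mp_cons n).measurable).aemeasurable).le.trans ?_
  simp only [Function.comp]
  have hI : Integrable (fun y : Fin n → ℝ => ∏ i, exp (-(k * y i))) (PP n) :=
    Integrable.fintype_prod (f := fun _ t => exp (-(k * t))) fun _ => (exp_moment k hk).1
  have hV : ∫ y, ∏ i, exp (-(k * y i)) ∂PP n = (1 / (1 + k)) ^ n := by
    unfold PP
    rw [integral_fintype_prod_eq_prod (f := fun _ t => exp (-(k * t)))]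
    simp [(exp_moment k hk).2]
  rw [← hV, ← integral_const_mul, ofReal_integral_eq_lintegral_ofReal (hI.const_mul _)
    (Eventually.of_forall fun y => by positivity)]
  refine lintegral_mono fun y => ?_
  have e : ∀ t : ℝ, {x : Fin (n + 1) → ℝ | u < c + ∑ i,
      (Fin.cons 2 fun _ => -(2 * k) : Fin (n + 1) → ℝ) i * x i}.indicator
        (1 : (Fin (n + 1) → ℝ) → ℝ≥0∞) (Fin.cons t y)
      = (Ioi ((u - c) / 2 + ∑ i, k * y i)).indicator 1 t := by
    intro t
    have : (u < c + ∑ i, (Fin.cons 2 fun _ => -(2 * k) : Fin (n + 1) → ℝ) i *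
        (Fin.cons t y : Fin (n + 1) → ℝ) i) ↔ (u - c) / 2 + ∑ i, k * y i < t := by
      rw [Fin.sum_univ_succ]
      simp only [Fin.cons_zero, Fin.cons_succ]
      have : ∑ i, -(2 * k) * y i = -2 * ∑ i, k * y i := by
        rw [Finset.mul_sum]; exact Finset.sum_congr rfl fun i _ => by ring
      rw [this]
      constructor <;> intro h <;> linarith
    simp only [indicator, mem_ofPred_eq, this, Pi.one_apply, mem_Ioi]
  simp only [e]
  rw [lintegral_indicator_one measurableSet_Ioi]
  refine (E1_Ioi_le _).trans (le_of_eq ?_)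
  congr 1
  rw [neg_add, exp_add, ← Finset.sum_neg_distrib, exp_sum]

theorem lower (k : ℝ) (hk : 0 < k) (n : ℕ) :
    1 - 4 / 9 * exp (2 / 3) * (1 / (1 + k)) ^ n ≤
      ∫ x, truncExpWeight (4 / 3 + ∑ i, (Fin.cons 2 fun _ => -(2 * k) : Fin (n + 1) → ℝ) i * x i)
        ∂PP (n + 1) := by
  set Y : (Fin (n + 1) → ℝ) → ℝ :=
    fun x => 4 / 3 + ∑ i, (Fin.cons 2 fun _ => -(2 * k) : Fin (n + 1) → ℝ) i * x i with hYd
  have hY : Measurable Y := by rw [hYd]; fun_prop
  have h := surv_ww (PP (n + 1)) Y hY
  have e : (fun u => ww u * (exp (-((u - 4 / 3) / 2)) * (1 / (1 + k)) ^ n)) =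
      (Ioi 0).indicator fun u => (exp (2 / 3) * (1 / (1 + k)) ^ n) * (u * exp (-(3 / 2 * u))) := by
    funext u
    unfold ww
    by_cases hu : 0 < u
    · rw [if_pos hu, indicator_of_mem (by simpa using hu)]
      have : exp (-u) * exp (-((u - 4 / 3) / 2)) = exp (2 / 3) * exp (-(3 / 2 * u)) := by
        rw [← exp_add, ← exp_add]; ring_nf
      linear_combination (u * (1 / (1 + k)) ^ n) * this
    · rw [if_neg hu, indicator_of_notMem (by simpa using hu), zero_mul]
  have h2 : ∫ u, ww u * (PP (n + 1)).real {ω | u < Y ω}
      ≤ ∫ u, ww u * (exp (-((u - 4 / 3) / 2)) * (1 / (1 + k)) ^ n) := by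
    refine integral_mono_of_nonneg (Eventually.of_forall fun u => ?_) ?_
      (Eventually.of_forall fun u => ?_)
    · exact mul_nonneg (ww_nonneg u) measureReal_nonneg
    · rw [e, integrable_indicator_iff measurableSet_Ioi]
      exact (gamma_tail (3 / 2) 0 (by norm_num) le_rfl).1.const_mul _
    · exact mul_le_mul_of_nonneg_left (Sv_special (4 / 3) k hk n u) (ww_nonneg u)
  rw [e, integral_indicator measurableSet_Ioi, integral_const_mul,
    (gamma_tail (3 / 2) 0 (by norm_num) le_rfl).2] at h2
  simp only [mul_zero, neg_zero, exp_zero, zero_div, zero_add, one_mul] at h2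
  linarith

end Crest.Agent.R280
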